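import Vale.Agent.P097.H367.PropBall
import Vale.Agent.P097.H128.NZ.End1
import Vale.Agent.P097.H128.NZ.Defs3

/-! # P097 / NZ-H1: goodness propagates over a connected piece of the surface of `ρ` -/

set_option linter.all false

open Complex Metric Filter Topology Set

namespace Vale.Agent.P097.NZ

/-! ## goodness depends on the germ only -/

theorem TT_germ {ρ₁ ρ₂ : ℂ → ℂ} {z : ℂ} (h : ∀ᶠ z' in 𝓝 z, ρ₁ z' = ρ₂ z') :
    ∀ᶠ p in 𝓝 ((z, 0) : ℂ × ℂ), TT ρ₁ p = TT ρ₂ p := by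
  obtain ⟨r, hr, hb⟩ := Metric.eventually_nhds_iff_ball.1 h
  refine eventually_of_polydisc (half_pos hr) (show 0 < r / 8 by positivity) fun z' hz' δ hδ => ?_
  have h1 : root (kr ρ₁ (z', δ)) = root (kr ρ₂ (z', δ)) := by
    refine root_congr one_ne_zero fun v hv => ?_
    have h2 : z' + δ * v ∈ ball z r := by
      rw [mem_ball, dist_eq_norm] at hz' ⊢
      rw [mem_ball_zero_iff] at hδ
      rw [mem_closedBall_zero_iff] at hv
      calc ‖z' + δ * v - z‖ = ‖(z' - z) + δ * v‖ := by ring_nf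
        _ ≤ ‖z' - z‖ + ‖δ‖ * ‖v‖ := by rw [← norm_mul]; exact norm_add_le _ _
        _ ≤ ‖z' - z‖ + (r / 8) * 3 := by gcongr
        _ < r := by linarith
    simp only [kr, hb _ h2, one_mul]
  simp only [TT, h1]

section
variable {ρ₁ ρ₂ : ℂ → ℂ} {z : ℂ}

theorem iter_germ (A : RootA) (h1 : AnalyticAt ℂ ρ₁ z) (h0 : ρ₁ z ≠ 0)
    (h : ∀ᶠ z' in 𝓝 z, ρ₁ z' = ρ₂ z') (k : ℕ) :
    ∀ᶠ p in 𝓝 ((z, 0) : ℂ × ℂ), (TT ρ₁)^[k] p = (TT ρ₂)^[k] p := by
  induction k with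
  | zero => exact Eventually.of_forall fun p => rfl
  | succ k ih =>
    have h2 : Tendsto (TT ρ₁)^[k] (𝓝 ((z, 0) : ℂ × ℂ)) (𝓝 (z, 0)) := by
      have := (iter_an A h1 h0 k).continuousAt.tendsto
      rwa [iter_axis] at this
    filter_upwards [ih, h2.eventually (TT_germ h)] with p h3 h4
    rw [Function.iterate_succ_apply', Function.iterate_succ_apply', ← h3, h4]

theorem Dk_germ (A : RootA) (h1 : AnalyticAt ℂ ρ₁ z) (h0 : ρ₁ z ≠ 0)
    (h : ∀ᶠ z' in 𝓝 z, ρ₁ z' = ρ₂ z') (m : ℕ) :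
    ∀ᶠ p in 𝓝 ((z, 0) : ℂ × ℂ), Dk (TT ρ₁) m p = Dk (TT ρ₂) m p := by
  have h2 : ∀ᶠ p in 𝓝 ((z, 0) : ℂ × ℂ), ∀ k ∈ Finset.range (m + 1),
      (TT ρ₁)^[k] p = (TT ρ₂)^[k] p :=
    (Filter.eventually_all_finset _).2 fun k _ => iter_germ A h1 h0 h k
  filter_upwards [h2] with p h3
  unfold Dk
  refine Finset.sum_congr rfl fun n hn => ?_
  congr 1
  refine Finset.sum_congr rfl fun k hk => ?_
  have h4 : k ∈ Finset.range (m + 1) := by
    have := Finset.mem_Icc.1 hn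
    have := Finset.mem_range.1 hk
    exact Finset.mem_range.2 (by omega)
  rw [h3 k h4]

theorem Ik_germ (A : RootA) (h1 : AnalyticAt ℂ ρ₁ z) (h0 : ρ₁ z ≠ 0)
    (h : ∀ᶠ z' in 𝓝 z, ρ₁ z' = ρ₂ z') (k : ℕ) : Ik ρ₁ k z = Ik ρ₂ k z := by
  have h2 : ∀ᶠ p in 𝓝 ((z, 0) : ℂ × ℂ), (fun p => Complex.sin p.2 * Dk (TT ρ₁) k p) p =
      (fun p => Complex.sin p.2 * Dk (TT ρ₂) k p) p := by
    filter_upwards [Dk_germ A h1 h0 h k] with p hp
    simp only [hp]
  have h3 := (tc_congr h2).self_of_nhds (k - 1)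
  simp only [Ik, h3, h.self_of_nhds]

theorem eventually_Ik_germ (A : RootA) (h1 : AnalyticAt ℂ ρ₁ z) (h0 : ρ₁ z ≠ 0)
    (h : ∀ᶠ z' in 𝓝 z, ρ₁ z' = ρ₂ z') : ∀ᶠ z' in 𝓝 z, ∀ k, Ik ρ₁ k z' = Ik ρ₂ k z' := by
  filter_upwards [h1.eventually_analyticAt, h1.continuousAt.eventually_ne h0,
    h.eventually_nhds] with z' a b c k
  exact Ik_germ A a b c k

/-- goodness depends on the germ of `ρ` only -/
theorem Good.germ (A : RootA) (h1 : AnalyticAt ℂ ρ₁ z) (h0 : ρ₁ z ≠ 0)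
    (h : ∀ᶠ z' in 𝓝 z, ρ₁ z' = ρ₂ z') (hg : Good (Ik ρ₁) (TT ρ₁) z) :
    Good (Ik ρ₂) (TT ρ₂) z := by
  have h2 := eventually_Ik_germ A h1 h0 h
  refine ⟨?_, hg.bd.congr h2, ?_, ?_⟩
  · filter_upwards [hg.hol, h2.eventually_nhds] with z' a b k
    exact (a k).congr (b.mono fun z'' hz'' => hz'' k)
  · have h3 := Sm_congr h2
    have h4 := (TT_tendsto A h1 h0).eventually h3
    filter_upwards [hg.inv, h3, h4, TT_germ h] with p a b c d
    rw [← d, ← c, a, b]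
  · filter_upwards [hg.odd, h2] with z' a b k hk
    rw [← b k, a k hk]

end

/-! ## propagation -/

/-- local statement: near `u₁` goodness is all or nothing -/
theorem goodAt_local (A : RootA) {U : Set ℂ} {π g : ℂ → ℂ} (hU : IsOpen U)
    (hπ : DifferentiableOn ℂ π U) (hg : DifferentiableOn ℂ g U)
    (hne : ∀ u ∈ U, deriv π u ≠ 0 ∧ g u ≠ 0) {u₁ : ℂ} (hu₁ : u₁ ∈ U) :
    ∀ᶠ u in 𝓝[U] u₁, (GoodAt π g u₁ ↔ GoodAt π g u) := by
  have hπa : AnalyticAt ℂ π u₁ := hπ.analyticAt (hU.mem_nhds hu₁)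
  have hs : HasStrictFDerivAt π
      ((ContinuousLinearEquiv.unitsEquivAut ℂ (Units.mk0 _ (hne u₁ hu₁).1) : ℂ ≃L[ℂ] ℂ) :
        ℂ →L[ℂ] ℂ) u₁ := hπa.hasStrictDerivAt.hasStrictFDerivAt_equiv (hne u₁ hu₁).1
  set e : OpenPartialHomeomorph ℂ ℂ := (hs.toOpenPartialHomeomorph π).restrOpen U hU with he
  have hes : e.source ⊆ U := fun x hx => hx.2
  have hu₁e : u₁ ∈ e.source := ⟨hs.mem_toOpenPartialHomeomorph_source, hu₁⟩
  have heπ : ∀ x, e x = π x := fun x => rfl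
  have htn : e.target ∈ 𝓝 (π u₁) := e.open_target.mem_nhds (by
    rw [← heπ]; exact e.map_source hu₁e)
  obtain ⟨r, hr, hb⟩ := Metric.mem_nhds_iff.1 htn
  set ρ₁ : ℂ → ℂ := fun z => g (e.symm z) with hρ₁
  have hsd : ∀ z ∈ ball (π u₁) r, DifferentiableAt ℂ e.symm z := by
    intro z hz
    have hz' : e.symm z ∈ e.source := e.map_target (hb hz)
    have h1 : HasDerivAt e (deriv π (e.symm z)) (e.symm z) :=
      (hπ.differentiableAt (hU.mem_nhds (hes hz'))).hasDerivAt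
    exact (e.hasDerivAt_symm (hb hz) (hne _ (hes hz')).1 h1).differentiableAt
  have hρd : DifferentiableOn ℂ ρ₁ (ball (π u₁) r) := by
    intro z hz
    have hz' : e.symm z ∈ e.source := e.map_target (hb hz)
    have h1 : DifferentiableAt ℂ g (e.symm z) := hg.differentiableAt (hU.mem_nhds (hes hz'))
    exact (h1.comp z (hsd z hz)).differentiableWithinAt
  have hρ : ∀ z ∈ ball (π u₁) r, AnalyticAt ℂ ρ₁ z ∧ ρ₁ z ≠ 0 := by
    intro z hz
    refine ⟨hρd.analyticAt (isOpen_ball.mem_nhds hz), ?_⟩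
    exact (hne _ (hes (e.map_target (hb hz)))).2
  have key : ∀ u ∈ e.source, π u ∈ ball (π u₁) r →
      (GoodAt π g u ↔ Good (Ik ρ₁) (TT ρ₁) (π u)) := by
    intro u hu hur
    constructor
    · intro h
      refine h ρ₁ ?_
      filter_upwards [e.open_source.mem_nhds hu] with u' hu'
      show g (e.symm (e u')) = g u'
      rw [e.left_inv hu']
    · intro h ρ h2
      refine Good.germ A (hρ _ hur).1 (hρ _ hur).2 ?_ h
      have h3 : Tendsto e.symm (𝓝 (π u)) (𝓝 u) := by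
        have h4 := (hsd _ hur).continuousAt.tendsto
        have h5 : e.symm (π u) = u := by rw [← heπ]; exact e.left_inv hu
        rwa [h5] at h4
      filter_upwards [h3.eventually h2, isOpen_ball.mem_nhds hur] with z h4 h5
      have h6 : π (e.symm z) = z := by rw [← heπ]; exact e.right_inv (hb h5)
      rw [h6] at h4
      exact h4.symm
  have hev : ∀ᶠ u in 𝓝 u₁, u ∈ e.source ∧ π u ∈ ball (π u₁) r :=
    (e.open_source.mem_nhds hu₁e |> fun h => (show ∀ᶠ u in 𝓝 u₁, u ∈ e.source from h)).and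
      (hπa.continuousAt.tendsto.eventually (ball_mem_nhds _ hr))
  filter_upwards [mem_nhdsWithin_of_mem_nhds hev] with u hu
  rw [key u₁ hu₁e (mem_ball_self hr), key u hu.1 hu.2]
  exact ⟨fun h => H367.PropD.propB A ρ₁ (π u₁) (π u₁) r hρ (mem_ball_self hr) h _ hu.2,
    fun h => H367.PropD.propB A ρ₁ (π u₁) (π u) r hρ hu.2 h _ (mem_ball_self hr)⟩

/-- **NZ-H1.** -/
theorem contGood (A : RootA) : ContGood := by
  intro U π g u₀ hU hc hπ hg hne hu₀ hG u hu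
  exact (hc.induction₂' (fun x y => GoodAt π g x ↔ GoodAt π g y)
    (fun x hx => (goodAt_local A hU hπ hg hne hx).mono fun y hy => ⟨hy, hy.symm⟩)
    (fun x y z _ _ _ h1 h2 => h1.trans h2) hu₀ hu).1 hG

end Vale.Agent.P097.NZ
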